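import Vale.Agent.P097.H418.Base2

/-!
# P097 / (A5) / block (T), straight line: row ST-1 = the pick

Class = all windows `(y, x, ρ)` with real apexes in a box; `Ev` = any size function with values in
`[0, 1]`; base pieces = the windows `(y', 0, 2 ^ (-(m + i)))` of one vertical.
-/

set_option linter.all false

open MeasureTheory Set Filter Topology
open scoped ENNReal
open Vale.Agent.P097.H315

namespace Vale.Agent.P097.H194.St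

/-- windows of the box -/
def Zw (d rm : ℝ) : Type :=
  {z : ℝ × ℝ × ℝ // |z.1| ≤ d ∧ |z.2.1| ≤ d ∧ 0 < z.2.2 ∧ z.2.2 ≤ rm}

/-- depth and distance -/
noncomputable def wz (d rm : ℝ) : Pick.Win (Zw d rm) where
  ρ z := z.1.2.2
  D z z' := |z.1.1 - z'.1.1| + |z.1.2.1 - z'.1.2.1| + z.1.2.2 + z'.1.2.2
  pos z := z.2.2.2.1
  left z z' := by
    have h1 := abs_nonneg (z.1.1 - z'.1.1)
    have h2 := abs_nonneg (z.1.2.1 - z'.1.2.1)
    have h3 := z'.2.2.2.1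
    linarith
  right z z' := by
    have h1 := abs_nonneg (z.1.1 - z'.1.1)
    have h2 := abs_nonneg (z.1.2.1 - z'.1.2.1)
    have h3 := z.2.2.2.1
    linarith
  tri z z' z'' := by
    have h1 := abs_sub_le z.1.1 z'.1.1 z''.1.1
    have h2 := abs_sub_le z.1.2.1 z'.1.2.1 z''.1.2.1
    have h3 := z'.2.2.2.1
    linarith
  self z := by
    simp only [sub_self, abs_zero]
    linarith

/-- **the pick** : near maximiser `(y, x, r)` with base `(y', 0, 2 ^ (-(m + i)))` -/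
structure Pk (Ev : ℝ → ℝ → ℝ → ℝ) (A B : Set ℝ) (η ρ₀ d rm y' : ℝ) (m i : ℕ) (y x r : ℝ) :
    Prop where
  hy : |y| ≤ d
  hx : |x| ≤ d
  r0 : 0 < r
  rr : r ≤ rm
  E0 : 0 < Ev y x r
  mz : Marc.Mz A B x r < ENNReal.ofReal η
  /-- (G) -/
  gd : ∀ y₁ x₁ ρ : ℝ, |y₁| ≤ d → |x₁| ≤ d → 0 < ρ → ρ ≤ rm →
    Ev y₁ x₁ ρ ≤ 12 * Ev y x r * Real.sqrt ((|y₁ - y| + |x₁ - x| + ρ + r) / r) *
      ((|y₁ - y| + |x₁ - x| + ρ + r) / ρ) ^ 2
  /-- (H) -/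
  ab : ∀ h : ℝ, r ≤ h → h ≤ |y' - y| + |x| + (1 / 2) ^ (m + i) + r → h ≤ rm →
    Ev y x h ≤ 12 * Ev y x r * (r / h) ^ 2
  /-- size of the base -/
  pp : ρ₀ / 64 * ((1 / 2 : ℝ) ^ i) ^ (1 / 8 : ℝ) ≤ Ev y' 0 ((1 / 2) ^ (m + i))
  /-- base and pick -/
  bs : Ev y' 0 ((1 / 2) ^ (m + i)) ≤ 12 * Ev y x r *
    Real.sqrt ((1 / 2) ^ (m + i) / (|y' - y| + |x| + (1 / 2) ^ (m + i) + r)) *
    (r / (|y' - y| + |x| + (1 / 2) ^ (m + i) + r)) ^ 2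
  /-- distance of base and pick, from the size of the base -/
  db : |y' - y| + |x| + (1 / 2) ^ (m + i) + r ≤
    (1 / 2) ^ (m + i) * (128 / (Ev y' 0 ((1 / 2) ^ (m + i))) ^ 2)
  /-- distance of base and pick, from the size of the pick -/
  ds : |y' - y| + |x| + (1 / 2) ^ (m + i) + r ≤ 2 ^ 77 / ρ₀ ^ 8 * (1 / 2) ^ m * Ev y x r ^ 6

theorem two_rpow : (2 : ℝ) ^ ((1 / 2 : ℝ) + 3) ≤ 12 := by
  have h1 : (2 : ℝ) ^ ((1 / 2 : ℝ) + 3) = Real.sqrt 2 * 8 := by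
    rw [Real.rpow_add (by norm_num), ← Real.sqrt_eq_rpow, show (3 : ℝ) = ((3 : ℕ) : ℝ) by norm_num,
      Real.rpow_natCast]
    norm_num
  have h2 : Real.sqrt 2 ≤ 3 / 2 := by
    rw [Real.sqrt_le_left (by norm_num)]; norm_num
  rw [h1]; linarith

theorem two_rpow_sq : ((2 : ℝ) ^ ((1 / 2 : ℝ) + 3)) ^ 2 = 128 := by
  have h1 : (2 : ℝ) ^ ((1 / 2 : ℝ) + 3) = Real.sqrt 2 * 8 := by
    rw [Real.rpow_add (by norm_num), ← Real.sqrt_eq_rpow, show (3 : ℝ) = ((3 : ℕ) : ℝ) by norm_num,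
      Real.rpow_natCast]
    norm_num
  rw [h1, mul_pow, Real.sq_sqrt (by norm_num)]
  norm_num

theorem base_pow : (1 / 64 : ℝ) ≤ (1 - (1 / 2 : ℝ) ^ (1 / 8 : ℝ)) / 4 := by
  have hb : (1 / 2 : ℝ) ^ (1 / 8 : ℝ) ≤ 15 / 16 := by
    have h1 : (1 / 2 : ℝ) ≤ (15 / 16 : ℝ) ^ (8 : ℝ) := by
      rw [show (8 : ℝ) = ((8 : ℕ) : ℝ) by norm_num, Real.rpow_natCast]; norm_num
    calc (1 / 2 : ℝ) ^ (1 / 8 : ℝ) ≤ ((15 / 16 : ℝ) ^ (8 : ℝ)) ^ (1 / 8 : ℝ) :=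
          Real.rpow_le_rpow (by norm_num) h1 (by norm_num)
      _ = 15 / 16 := by rw [← Real.rpow_mul (by norm_num)]; norm_num
  linarith

/-- **ST-1** -/
theorem pick_st {A B : Set ℝ} (hB : MeasurableSet B) (hA : (0 : ℝ) ∈ A) {η : ℝ} (hη : 0 < η)
    (hJ : 8 * Marc.Jm A B 0 ≤ ENNReal.ofReal η) {ρ₀ : ℝ} (h0 : 0 < ρ₀) (h1 : ρ₀ ≤ 1) :
    ∃ M : ℕ, ∀ {d rm : ℝ} {Ev : ℝ → ℝ → ℝ → ℝ} (hE : ∀ y x h, 0 ≤ Ev y x h ∧ Ev y x h ≤ 1)
      {m : ℕ}, M ≤ m → (1 / 2 : ℝ) ^ m ≤ rm → ∀ {y' : ℝ}, |y'| ≤ d → ∀ {n : ℕ},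
      ρ₀ ≤ ∑ i ∈ Finset.range (n + 1), Ev y' 0 ((1 / 2) ^ (m + i)) →
      ∃ i ≤ n, ∃ y x r : ℝ, Pk Ev A B η ρ₀ d rm y' m i y x r := by
  have hJ' : Marc.Jm A B 0 ≠ ∞ := by
    intro h
    rw [h, ENNReal.mul_top (by norm_num), top_le_iff] at hJ
    exact ENNReal.ofReal_ne_top hJ
  obtain ⟨M, hM⟩ := H418.exists_start (a := 1 / 2) (by norm_num) hA hη hJ' h0
  refine ⟨M, fun {d rm Ev} hE {m} hm hrm {y'} hy' {n} hs => ?_⟩
  have hd : 0 ≤ d := (abs_nonneg _).trans hy'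
  -- the base windows
  have hp0 : ∀ i : ℕ, (0 : ℝ) < (1 / 2) ^ (m + i) := fun i => by positivity
  have hp1 : ∀ i : ℕ, (1 / 2 : ℝ) ^ (m + i) ≤ rm := fun i => by
    refine le_trans ?_ hrm
    exact pow_le_pow_of_le_one (by norm_num) (by norm_num) (by omega)
  let w := wz d rm
  let v : Zw d rm → ℝ := fun z => z.1.2.1
  let E : Zw d rm → ℝ := fun z => Ev z.1.1 z.1.2.1 z.1.2.2
  let bp : ℕ → Zw d rm := fun i => ⟨(y', 0, (1 / 2) ^ (m + i)), hy', by simpa using hd, hp0 i, hp1 i⟩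
  have hv : ∀ z z', |v z - v z'| + w.ρ z + w.ρ z' ≤ w.D z z' := by
    intro z z'
    have := abs_nonneg (z.1.1 - z'.1.1)
    show |z.1.2.1 - z'.1.2.1| + z.1.2.2 + z'.1.2.2 ≤
      |z.1.1 - z'.1.1| + |z.1.2.1 - z'.1.2.1| + z.1.2.2 + z'.1.2.2
    linarith
  have htail : ∑' k : ℕ, H418.bi (1 / 2) A B 0 (k + m) ≤
      ENNReal.ofReal (η * (ρ₀ / 1) / 2 ^ (2 * (1 / 2 : ℝ) + 8)) := by
    rw [div_one]; exact hM m hm
  obtain ⟨i, hi, p, hpP, z, hz, hbad, hEp, -⟩ := H418.pick_of_sum w v hv hB (a := 1 / 2)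
    (θ := 1 / 8) (by norm_num) (by norm_num) hA hη hJ (E := E) (fun z => (hE _ _ _).1)
    (fun z => (hE _ _ _).2) (ρ₀ := ρ₀) (N := 1) h0 h1 htail (n := n) (P := fun i => {bp i})
    (e := fun i => Ev y' 0 ((1 / 2) ^ (m + i)))
    (by
      intro i hi p hp
      rw [mem_singleton_iff] at hp
      subst hp
      refine ⟨rfl, ?_, le_rfl⟩
      show (1 / 2 : ℝ) ^ (m + i + 1) ≤ (1 / 2) ^ (m + i)
      exact pow_le_pow_of_le_one (by norm_num) (by norm_num) (by omega))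
    (by
      intro i hi s hs0 hs1 h
      rw [one_mul]
      exact h (bp i) rfl)
    hs
  rw [mem_singleton_iff] at hpP
  subst hpP
  -- facts in plain form
  set y := z.1.1 with hydef
  set x := z.1.2.1 with hxdef
  set r := z.1.2.2 with hrdef
  have hr0 : 0 < r := z.2.2.2.1
  set P := (1 / 2 : ℝ) ^ (m + i) with hP
  have hP0 : 0 < P := hp0 i
  set D := |y' - y| + |x| + P + r with hD
  have eD : w.D (bp i) z = D := by
    show |y' - z.1.1| + |0 - z.1.2.1| + (1 / 2 : ℝ) ^ (m + i) + z.1.2.2 = D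
    rw [zero_sub, abs_neg]
  have eP : w.ρ (bp i) = P := rfl
  have er : w.ρ z = r := rfl
  have eEp : E (bp i) = Ev y' 0 P := rfl
  have eEz : E z = Ev y x r := rfl
  have hD0 : 0 < D := by
    have := abs_nonneg (y' - y); have := abs_nonneg x; linarith
  have hPD : P ≤ D := by
    have := abs_nonneg (y' - y); have := abs_nonneg x; linarith
  have hrD : r ≤ D := by
    have := abs_nonneg (y' - y); have := abs_nonneg x; linarith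
  have c12 := two_rpow
  have hEz0 : 0 < Ev y x r := hz.pos
  -- size of the base
  have hpp : ρ₀ / 64 * ((1 / 2 : ℝ) ^ i) ^ (1 / 8 : ℝ) ≤ Ev y' 0 P := by
    refine le_trans ?_ hEp
    have h3 : 0 ≤ ((1 / 2 : ℝ) ^ i) ^ (1 / 8 : ℝ) := by positivity
    have h4 := base_pow
    have h5 : ρ₀ / 64 ≤ (1 - (1 / 2 : ℝ) ^ (1 / 8 : ℝ)) / 4 * (ρ₀ / 1) := by
      rw [div_one]; nlinarith
    exact mul_le_mul_of_nonneg_right h5 h3
  have hEp0 : 0 < Ev y' 0 P := lt_of_lt_of_le (by positivity) hpp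
  have hEp1 : Ev y' 0 P ≤ 1 := (hE _ _ _).2
  -- base and pick
  have hbs : Ev y' 0 P ≤ 12 * Ev y x r * Real.sqrt (P / D) * (r / D) ^ 2 := by
    have h3 := hz.base (by norm_num) hEp0.le
    rw [eEp, eEz] at h3
    unfold Pick.Win.W at h3
    rw [eD, eP, er, ← Real.sqrt_eq_rpow] at h3
    refine h3.trans ?_
    have h4 : 0 ≤ Ev y x r * (Real.sqrt (P / D) * (r / D) ^ 2) := by positivity
    calc (2 : ℝ) ^ ((1 / 2 : ℝ) + 3) * (Ev y x r * (Real.sqrt (P / D) * (r / D) ^ 2))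
        ≤ 12 * (Ev y x r * (Real.sqrt (P / D) * (r / D) ^ 2)) :=
          mul_le_mul_of_nonneg_right c12 h4
      _ = _ := by ring
  have hE12 : Ev y' 0 P ≤ 12 * Ev y x r := by
    refine hbs.trans ?_
    have h4 : Real.sqrt (P / D) ≤ 1 := by
      rw [Real.sqrt_le_one]; exact (div_le_one hD0).mpr hPD
    have h5 : (r / D) ^ 2 ≤ 1 := pow_le_one₀ (by positivity) ((div_le_one hD0).mpr hrD)
    have h6 : 0 ≤ 12 * Ev y x r := by positivity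
    calc 12 * Ev y x r * Real.sqrt (P / D) * (r / D) ^ 2
        ≤ 12 * Ev y x r * 1 * 1 := by gcongr
      _ = _ := by ring
  -- the distance
  have hdb : D ≤ P * (128 / Ev y' 0 P ^ 2) := by
    have h3 := hz.dist (by norm_num) hEp0 (fun z => (hE _ _ _).2)
    rw [eD, eP, eEp] at h3
    refine h3.trans (le_of_eq ?_)
    rw [show (1 / (1 / 2) : ℝ) = ((2 : ℕ) : ℝ) by norm_num, Real.rpow_natCast, div_pow,
      two_rpow_sq]
  have hds : D ≤ 2 ^ 77 / ρ₀ ^ 8 * (1 / 2) ^ m * Ev y x r ^ 6 := by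
    have h3 : (1 / 2 : ℝ) ^ i ≤ (64 * Ev y' 0 P / ρ₀) ^ 8 := by
      have h4 : ((1 / 2 : ℝ) ^ i) ^ (1 / 8 : ℝ) ≤ 64 * Ev y' 0 P / ρ₀ := by
        rw [le_div_iff₀ h0]; linarith
      calc (1 / 2 : ℝ) ^ i = (((1 / 2 : ℝ) ^ i) ^ (1 / 8 : ℝ)) ^ 8 := by
            rw [← Real.rpow_natCast (((1 / 2 : ℝ) ^ i) ^ (1 / 8 : ℝ)) 8,
              ← Real.rpow_mul (by positivity)]
            norm_num
        _ ≤ _ := pow_le_pow_left₀ (by positivity) h4 8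
    have h5 : P = (1 / 2 : ℝ) ^ m * (1 / 2) ^ i := by rw [hP, pow_add]
    have h6 : Ev y' 0 P ^ 6 ≤ (12 * Ev y x r) ^ 6 := pow_le_pow_left₀ hEp0.le hE12 6
    calc D ≤ P * (128 / Ev y' 0 P ^ 2) := hdb
      _ = (1 / 2 : ℝ) ^ m * (128 / Ev y' 0 P ^ 2) * (1 / 2) ^ i := by rw [h5]; ring
      _ ≤ (1 / 2 : ℝ) ^ m * (128 / Ev y' 0 P ^ 2) * (64 * Ev y' 0 P / ρ₀) ^ 8 := by gcongr
      _ = (1 / 2 : ℝ) ^ m * (2 ^ 55 / ρ₀ ^ 8) * Ev y' 0 P ^ 6 := by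
          field_simp
          ring
      _ ≤ (1 / 2 : ℝ) ^ m * (2 ^ 55 / ρ₀ ^ 8) * (12 * Ev y x r) ^ 6 := by gcongr
      _ = (12 ^ 6 * 2 ^ 55) * ((1 / 2 : ℝ) ^ m * (1 / ρ₀ ^ 8) * Ev y x r ^ 6) := by ring
      _ ≤ 2 ^ 77 * ((1 / 2 : ℝ) ^ m * (1 / ρ₀ ^ 8) * Ev y x r ^ 6) := by
          apply mul_le_mul_of_nonneg_right _ (by positivity)
          norm_num
      _ = _ := by ring
  refine ⟨i, hi, y, x, r, z.2.1, z.2.2.1, hr0, z.2.2.2.2, hEz0, hbad, ?_, ?_, hpp, hbs, hdb, hds⟩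
  · -- (G)
    intro y₁ x₁ ρ hy₁ hx₁ hρ hρm
    let z₁ : Zw d rm := ⟨(y₁, x₁, ρ), hy₁, hx₁, hρ, hρm⟩
    have h3 := hz.growth (by norm_num) z₁
    set D₁ := |y₁ - y| + |x₁ - x| + ρ + r with hD₁
    have e1 : w.D z z₁ = D₁ := by
      show |z.1.1 - y₁| + |z.1.2.1 - x₁| + z.1.2.2 + ρ = D₁
      rw [abs_sub_comm, abs_sub_comm z.1.2.1]
      ring
    have hD₁0 : 0 < D₁ := by
      have := abs_nonneg (y₁ - y); have := abs_nonneg (x₁ - x); linarith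
    have e2 : E z₁ = Ev y₁ x₁ ρ := rfl
    have e3 : w.ρ z₁ = ρ := rfl
    unfold Pick.Win.W at h3
    rw [e1, e2, e3, er, eEz, ← Real.sqrt_eq_rpow] at h3
    refine h3.trans ?_
    have e4 : Real.sqrt (r / D₁) = (Real.sqrt (D₁ / r))⁻¹ := by
      rw [← Real.sqrt_inv, inv_div]
    have h4 : 0 < Real.sqrt (D₁ / r) := Real.sqrt_pos.mpr (by positivity)
    rw [e4]
    have h5 : (2 : ℝ) ^ ((1 / 2 : ℝ) + 3) * Ev y x r / ((Real.sqrt (D₁ / r))⁻¹ * (ρ / D₁) ^ 2) =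
        (2 : ℝ) ^ ((1 / 2 : ℝ) + 3) * (Ev y x r * Real.sqrt (D₁ / r) * (D₁ / ρ) ^ 2) := by
      field_simp
    rw [h5]
    calc (2 : ℝ) ^ ((1 / 2 : ℝ) + 3) * (Ev y x r * Real.sqrt (D₁ / r) * (D₁ / ρ) ^ 2)
        ≤ 12 * (Ev y x r * Real.sqrt (D₁ / r) * (D₁ / ρ) ^ 2) :=
          mul_le_mul_of_nonneg_right c12 (by positivity)
      _ = _ := by ring
  · -- (H)
    intro h hrh hhD hhm
    have hh0 : 0 < h := lt_of_lt_of_le hr0 hrh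
    let z₁ : Zw d rm := ⟨(y, x, h), z.2.1, z.2.2.1, hh0, hhm⟩
    have e1 : w.D (bp i) z₁ = |y' - y| + |x| + P + h := by
      show |y' - y| + |0 - x| + (1 / 2 : ℝ) ^ (m + i) + h = _
      rw [zero_sub, abs_neg]
    have h3 := hz.above (by norm_num) (C := 2) (z' := z₁) (by
      rw [e1, eD]
      have := abs_nonneg (y' - y); have := abs_nonneg x
      rw [hD]; linarith)
    have e2 : E z₁ = Ev y x h := rfl
    have e3 : w.ρ z₁ = h := rfl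
    rw [e2, e3, er, eEz] at h3
    refine h3.trans ?_
    have e5 : 2 * (2 : ℝ) ^ ((1 / 2 : ℝ) + 2) = (2 : ℝ) ^ ((1 / 2 : ℝ) + 3) := by
      rw [show (1 / 2 : ℝ) + 3 = ((1 / 2 : ℝ) + 2) + 1 by norm_num,
        Real.rpow_add (by norm_num) _ 1, Real.rpow_one]
      ring
    rw [e5]
    have h6 : 0 ≤ Ev y x r * (r / h) ^ 2 := by positivity
    calc (2 : ℝ) ^ ((1 / 2 : ℝ) + 3) * Ev y x r * (r / h) ^ 2
        = (2 : ℝ) ^ ((1 / 2 : ℝ) + 3) * (Ev y x r * (r / h) ^ 2) := by ring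
      _ ≤ 12 * (Ev y x r * (r / h) ^ 2) := mul_le_mul_of_nonneg_right c12 h6
      _ = _ := by ring

end Vale.Agent.P097.H194.St
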