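import Vale.Agent.P097.H194.St.Pick
import Vale.Agent.P097.H509.St.Defs

/-!
# P097 / (A5) / block (T), straight line: the pick in the language of H509/St/Defs
-/

set_option linter.all false

open MeasureTheory Set Filter Topology
open scoped ENNReal
open Vale.Agent.P097.H315 Vale.Agent.P097.H509.St

namespace Vale.Agent.P097.H194.St

theorem Es_bd (L : ℂ × ℂ → ℂ × ℂ) (X om y x h : ℝ) : 0 ≤ Es L X om y x h ∧ Es L X om y x h ≤ 1 :=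
  ⟨le_min zero_le_one Metric.diam_nonneg, min_le_left _ _⟩

/-- (G) -/
theorem Pk.gg {L : ℂ × ℂ → ℂ × ℂ} {Xp op : ℝ} {A B : Set ℝ} {η ρ₀ y' : ℝ} {m i : ℕ} {y x r : ℝ}
    (h : Pk (Es L Xp op) A B η ρ₀ (1 / 4) (1 / (4 * Xp)) y' m i y x r) :
    GG L Xp op 12 (Es L Xp op y x r) y x r :=
  fun y₁ x₁ ρ h1 h2 h3 h4 => h.gd y₁ x₁ ρ h1 h2 h3 h4

/-- smallness of the pick: `loc` and `lg` of `Pick` -/
theorem exists_m {ρ₀ κ : ℝ} (h0 : 0 < ρ₀) (hκ : 0 < κ) : ∃ m₁ : ℕ, ∀ m : ℕ, m₁ ≤ m →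
    ∀ {Ev : ℝ → ℝ → ℝ → ℝ} {A B : Set ℝ} {η d rm y' : ℝ} {i : ℕ} {y x r : ℝ},
    (∀ y x h, 0 ≤ Ev y x h ∧ Ev y x h ≤ 1) → |y'| ≤ κ / 2 → Pk Ev A B η ρ₀ d rm y' m i y x r →
    |y| + |x| + r ≤ κ ∧ r * max (Real.log (Ev y x r)⁻¹) 0 ≤ κ ∧
    |y' - y| + |x| + (1 / 2) ^ (m + i) + r ≤ κ * Ev y x r := by
  have hC : 0 < 2 ^ 77 / ρ₀ ^ 8 := by positivity
  obtain ⟨m₁, hm₁⟩ := exists_pow_lt_of_lt_one (show 0 < κ / 2 / (2 ^ 77 / ρ₀ ^ 8) by positivity)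
    (show (1 / 2 : ℝ) < 1 by norm_num)
  refine ⟨m₁, fun m hm {Ev A B η d rm y' i y x r} hE hy' P => ?_⟩
  have h1 : 2 ^ 77 / ρ₀ ^ 8 * (1 / 2 : ℝ) ^ m ≤ κ / 2 := by
    have h2 : (1 / 2 : ℝ) ^ m ≤ (1 / 2) ^ m₁ :=
      pow_le_pow_of_le_one (by norm_num) (by norm_num) hm
    have h3 := mul_le_mul_of_nonneg_left (h2.trans hm₁.le) hC.le
    rwa [mul_div_cancel₀ _ hC.ne'] at h3
  have hE0 := P.E0
  have hE1 := (hE y x r).2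
  have hr0 := P.r0
  have hP : (0 : ℝ) < (1 / 2) ^ (m + i) := by positivity
  have a1 := abs_nonneg (y' - y)
  have a2 := abs_nonneg x
  have hD : |y' - y| + |x| + (1 / 2) ^ (m + i) + r ≤ κ / 2 * Ev y x r ^ 6 :=
    P.ds.trans (mul_le_mul_of_nonneg_right h1 (by positivity))
  have p6 : Ev y x r ^ 6 ≤ 1 := pow_le_one₀ hE0.le hE1
  have p1 : Ev y x r ^ 6 ≤ Ev y x r := by
    calc Ev y x r ^ 6 = Ev y x r * Ev y x r ^ 5 := by ring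
      _ ≤ Ev y x r * 1 := mul_le_mul_of_nonneg_left (pow_le_one₀ hE0.le hE1) hE0.le
      _ = _ := mul_one _
  have hD1 : |y' - y| + |x| + (1 / 2) ^ (m + i) + r ≤ κ / 2 := by
    refine hD.trans ?_
    have := mul_le_mul_of_nonneg_left p6 (show 0 ≤ κ / 2 by positivity)
    linarith
  have h5 : |y| ≤ |y'| + |y' - y| := by
    have := abs_sub_abs_le_abs_sub y y'
    rw [abs_sub_comm y y'] at this
    linarith
  refine ⟨by linarith, ?_, ?_⟩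
  · rcases le_total (Real.log (Ev y x r)⁻¹) 0 with h6 | h6
    · rw [max_eq_right h6, mul_zero]; exact hκ.le
    · rw [max_eq_left h6]
      have h7 : Real.log (Ev y x r)⁻¹ ≤ (Ev y x r)⁻¹ := by
        have := Real.log_le_sub_one_of_pos (inv_pos.mpr hE0)
        linarith
      have h8 : r ≤ κ / 2 * Ev y x r ^ 6 := by linarith
      calc r * Real.log (Ev y x r)⁻¹ ≤ r * (Ev y x r)⁻¹ := mul_le_mul_of_nonneg_left h7 hr0.le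
        _ ≤ κ / 2 * Ev y x r ^ 6 * (Ev y x r)⁻¹ :=
            mul_le_mul_of_nonneg_right h8 (inv_nonneg.mpr hE0.le)
        _ = κ / 2 * Ev y x r ^ 5 := by field_simp
        _ ≤ κ / 2 * 1 := mul_le_mul_of_nonneg_left (pow_le_one₀ hE0.le hE1) (by positivity)
        _ ≤ κ := by linarith
  · calc |y' - y| + |x| + (1 / 2) ^ (m + i) + r ≤ κ / 2 * Ev y x r ^ 6 := hD
      _ ≤ κ / 2 * Ev y x r := mul_le_mul_of_nonneg_left p1 (by positivity)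
      _ ≤ κ * Ev y x r := by nlinarith

/-- **ST-1 in the language of the Defs** : everything of `Pick` except `mv`, and (H), and the
distance of base and pick. -/
theorem pick_defs {A B : Set ℝ} (hB : MeasurableSet B) (hA : (0 : ℝ) ∈ A) {η : ℝ} (hη : 0 < η)
    (hJ : 8 * Marc.Jm A B 0 ≤ ENNReal.ofReal η) {ρ₀ : ℝ} (h0 : 0 < ρ₀) (h1 : ρ₀ ≤ 1)
    {κ : ℝ} (hκ : 0 < κ) {Xp : ℝ} (hXp : 0 < Xp) :
    ∃ M : ℕ, ∀ {L : ℂ × ℂ → ℂ × ℂ} {op : ℝ} {m : ℕ}, M ≤ m →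
      ∀ {y' : ℝ}, |y'| ≤ 1 / 4 → |y'| ≤ κ / 2 → ∀ {n : ℕ},
      ρ₀ ≤ ∑ i ∈ Finset.range (n + 1), Es L Xp op y' 0 ((1 / 2) ^ (m + i)) →
      ∃ i ≤ n, ∃ y x r : ℝ, |y| + |x| + r ≤ κ ∧ 0 < r ∧ r ≤ 1 / (4 * Xp) ∧
        0 < Es L Xp op y x r ∧
        Marc.Mz A B x r < ENNReal.ofReal η ∧ GG L Xp op 12 (Es L Xp op y x r) y x r ∧
        r * max (Real.log (Es L Xp op y x r)⁻¹) 0 ≤ κ ∧
        |y' - y| + |x| + (1 / 2) ^ (m + i) + r ≤ κ * Es L Xp op y x r ∧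
        |y| ≤ 1 / 4 ∧ |x| ≤ 1 / 4 ∧
        ∀ h : ℝ, r ≤ h → h ≤ |y' - y| + |x| + (1 / 2) ^ (m + i) + r → h ≤ 1 / (4 * Xp) →
          Es L Xp op y x h ≤ 12 * Es L Xp op y x r * (r / h) ^ 2 := by
  obtain ⟨M, hM⟩ := pick_st hB hA hη hJ h0 h1
  obtain ⟨m₁, hm₁⟩ := exists_m h0 hκ
  obtain ⟨m₂, hm₂⟩ := exists_pow_lt_of_lt_one (show 0 < 1 / (4 * Xp) by positivity)
    (show (1 / 2 : ℝ) < 1 by norm_num)
  refine ⟨max M (max m₁ m₂), fun {L op m} hm {y'} hy' hyκ {n} hs => ?_⟩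
  have c1 : M ≤ m := le_trans (le_max_left _ _) hm
  have c2 : m₁ ≤ m := le_trans ((le_max_left _ _).trans (le_max_right _ _)) hm
  have c3 : m₂ ≤ m := le_trans ((le_max_right _ _).trans (le_max_right _ _)) hm
  have hrm : (1 / 2 : ℝ) ^ m ≤ 1 / (4 * Xp) :=
    (pow_le_pow_of_le_one (by norm_num) (by norm_num) c3).trans hm₂.le
  obtain ⟨i, hi, y, x, r, P⟩ := hM (d := 1 / 4) (rm := 1 / (4 * Xp)) (Ev := Es L Xp op)
    (Es_bd L Xp op) c1 hrm hy' hs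
  obtain ⟨a1, a2, a3⟩ := hm₁ m c2 (Es_bd L Xp op) hyκ P
  exact ⟨i, hi, y, x, r, a1, P.r0, P.rr, P.E0, P.mz, P.gg, a2, a3, P.hy, P.hx, P.ab⟩

end Vale.Agent.P097.H194.St
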